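import Mathlib
import Vale.Agent.P331.Defs
import Vale.Agent.P331.Fixed

namespace Vale.Agent.Results.P331.FixedOrderHalf

open MeasureTheory Vale.Agent.P331
open scoped NNReal ENNReal

theorem result {α : Type} [Fintype α] [DecidableEq α] (M : Matroid α) (hE : M.E = Set.univ) :
    ∃ (Ω : Type) (_ : MeasurableSpace Ω) (P : Measure Ω) (_ : IsProbabilityMeasure P)
      (R : Rule M Ω),
      ∀ (D : α → Measure ℝ≥0) [∀ e, IsProbabilityMeasure (D e)]
        (g : (α → ℝ≥0) × (α → ℝ≥0) → Order α), Measurable g →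
        (1 / 2 : ℝ≥0∞) * ∫⁻ V, opt M V ∂(Measure.pi D) ≤
          ∫⁻ p, reward R p.1.1 p.1.2 p.2
            (g (fun e => min (p.1.1 e) (p.1.2 e), fun e => max (p.1.1 e) (p.1.2 e)))
            ∂(((Measure.pi D).prod (Measure.pi D)).prod P) :=
  ⟨α → Bool, inferInstance, (PMF.uniformOfFintype (α → Bool)).toMeasure, inferInstance,
    rule M hE, fun D _ g hg => fixed_order M hE D g hg⟩

end Vale.Agent.Results.P331.FixedOrderHalf
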